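import Mathlib

/-!
# P134 (De Giorgi's conjecture for the Allen-Cahn equation): separable solutions

Every entire `C^2` solution of `Δ u = u^3 - u` on `ℝ^n` that is additively separable in some
orthonormal frame, `u(x) = ∑_i f_i(⟨b_i, x⟩)`, is one-dimensional: `u(x) = h(⟨e, x⟩)` for a unit
vector `e`.  No monotonicity or boundedness is needed, and the dimension is arbitrary.

Proof idea: for `i ≠ j` the mixed second difference of `u` in the directions `b_i`, `b_j`
vanishes, hence (the Laplacian commutes with translations) so does that of `Δ u = u^3 - u`.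
With `a = u(x)`, `A = u(x + s b_i)`, `B = u(x + t b_j)` this reads
`3 (A - a) (B - a) (A + B) = 0`.  If `f_i` and `f_j` were both nonconstant this forces `f_j` to
take exactly two values, contradicting continuity.
-/

namespace Vale.Agent.Results.P134.SeparableOneDim

open InnerProductSpace Laplacian

variable {n : ℕ}

/-- The Laplacian commutes with translations. -/
theorem laplacian_comp_add_right (u : EuclideanSpace ℝ (Fin n) → ℝ)
    (a x : EuclideanSpace ℝ (Fin n)) :
    Δ (fun z => u (z + a)) x = Δ u (x + a) := by
  simp only [laplacian_eq_iteratedFDeriv_stdOrthonormalBasis]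
  simp [iteratedFDeriv_comp_add_right]

/-- If the mixed second difference of `u` in the directions `v`, `w` vanishes identically, so
does that of `Δ u`. -/
theorem laplacian_mixed (u : EuclideanSpace ℝ (Fin n) → ℝ) (hu : ContDiff ℝ 2 u)
    (v w : EuclideanSpace ℝ (Fin n))
    (hD : ∀ z, u (z + v + w) = u (z + v) + u (z + w) - u z) (x : EuclideanSpace ℝ (Fin n)) :
    Δ u (x + v + w) = Δ u (x + v) + Δ u (x + w) - Δ u x := by
  have h1 : ContDiff ℝ 2 (fun z => u (z + v)) := hu.comp (contDiff_id.add contDiff_const)
  have h2 : ContDiff ℝ 2 (fun z => u (z + w)) := hu.comp (contDiff_id.add contDiff_const)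
  have hfun : (fun z => u (z + (v + w))) = ((fun z => u (z + v)) + (fun z => u (z + w))) - u := by
    funext z
    simp only [Pi.add_apply, Pi.sub_apply]
    rw [← add_assoc, hD z]
  have key := congrArg (fun F : EuclideanSpace ℝ (Fin n) → ℝ => Δ F x) hfun
  beta_reduce at key
  have h12 : ContDiffAt ℝ 2 ((fun z => u (z + v)) + fun z => u (z + w)) x :=
    h1.contDiffAt.add h2.contDiffAt
  rw [laplacian_comp_add_right, ContDiffAt.laplacian_sub h12 hu.contDiffAt,
    ContDiffAt.laplacian_add h1.contDiffAt h2.contDiffAt, laplacian_comp_add_right,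
    laplacian_comp_add_right, ← add_assoc] at key
  exact key

/-- A continuous real function on `ℝ` taking only the two values `A ≠ B`, both attained,
does not exist. -/
theorem not_two_valued (φ : ℝ → ℝ) (hφ : Continuous φ) (q q' : ℝ) (hne : φ q ≠ φ q')
    (h2 : ∀ r, φ r = φ q ∨ φ r = φ q') : False := by
  rcases lt_or_gt_of_ne hne with hlt | hgt
  · have hmem : (φ q + φ q') / 2 ∈ Set.Icc (φ q) (φ q') := ⟨by linarith, by linarith⟩
    obtain ⟨r, hr⟩ := intermediate_value_univ q q' hφ hmem
    rcases h2 r with h | h <;> linarith
  · have hmem : (φ q + φ q') / 2 ∈ Set.Icc (φ q') (φ q) := ⟨by linarith, by linarith⟩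
    obtain ⟨r, hr⟩ := intermediate_value_univ q' q hφ hmem
    rcases h2 r with h | h <;> linarith

/-- **Separable solutions of the Allen-Cahn equation are one-dimensional.**
Let `u ∈ C^2(ℝ^n)`, `n ≥ 1`, solve `Δ u = u^3 - u` on all of `ℝ^n`, and suppose that for some
orthonormal basis `b` of `ℝ^n` and functions `f_i : ℝ → ℝ` one has
`u(x) = ∑_i f_i(⟨b_i, x⟩)` for all `x`.  Then there are a unit vector `e` and `h : ℝ → ℝ`
with `u(x) = h(⟨e, x⟩)` for all `x`. -/
theorem result (hn : 0 < n) (u : EuclideanSpace ℝ (Fin n) → ℝ) (hu : ContDiff ℝ 2 u)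
    (heq : ∀ x, Δ u x = u x ^ 3 - u x)
    (b : OrthonormalBasis (Fin n) ℝ (EuclideanSpace ℝ (Fin n))) (f : Fin n → ℝ → ℝ)
    (hsep : ∀ x, u x = ∑ i, f i (inner ℝ (b i) x)) :
    ∃ (e : EuclideanSpace ℝ (Fin n)) (h : ℝ → ℝ), ‖e‖ = 1 ∧ ∀ x, u x = h (inner ℝ e x) := by
  classical
  have hon : ∀ i j, inner ℝ (b i) (b j) = if i = j then (1 : ℝ) else 0 :=
    orthonormal_iff_ite.mp b.orthonormal
  -- moving along `b k` only changes the `k`-th summand
  have hdiff : ∀ (x : EuclideanSpace ℝ (Fin n)) (k : Fin n) (t : ℝ), u (x + t • b k)
      = u x + (f k (inner ℝ (b k) x + t) - f k (inner ℝ (b k) x)) := by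
    intro x k t
    rw [hsep, hsep]
    have hm : ∀ m, f m (inner ℝ (b m) (x + t • b k)) = f m (inner ℝ (b m) x)
        + (if m = k then (f k (inner ℝ (b k) x + t) - f k (inner ℝ (b k) x)) else 0) := by
      intro m
      by_cases hmk : m = k
      · subst hmk
        simp [inner_add_right, inner_smul_right]
      · simp [hmk, inner_add_right, inner_smul_right, hon]
    simp [hm, Finset.sum_add_distrib]
  -- vanishing mixed differences
  have hmix : ∀ i j, i ≠ j → ∀ (x : EuclideanSpace ℝ (Fin n)) (s t : ℝ),
      u (x + s • b i + t • b j) = u (x + s • b i) + u (x + t • b j) - u x := by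
    intro i j hij x s t
    have e1 := hdiff (x + s • b i) j t
    have e2 := hdiff x j t
    have hji : j ≠ i := fun h => hij h.symm
    have e3 : inner ℝ (b j) (x + s • b i) = inner ℝ (b j) x := by
      simp [inner_add_right, inner_smul_right, hon, hji]
    rw [e3] at e1
    linarith
  -- the trichotomy
  have htri : ∀ i j, i ≠ j → ∀ (x : EuclideanSpace ℝ (Fin n)) (s t : ℝ),
      (u (x + s • b i) - u x) * (u (x + t • b j) - u x)
        * (u (x + s • b i) + u (x + t • b j)) = 0 := by
    intro i j hij x s t
    have hL := laplacian_mixed u hu (s • b i) (t • b j) (fun z => hmix i j hij z s t) x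
    rw [heq, heq, heq, heq, hmix i j hij x s t] at hL
    linear_combination (1 / 3 : ℝ) * hL
  -- continuity of each `f j`
  have hcont : ∀ j, Continuous (f j) := by
    intro j
    have hform : f j = fun t => u (t • b j) - u 0 + f j 0 := by
      funext t
      have := hdiff 0 j t
      simp only [zero_add, inner_zero_right] at this
      linarith
    rw [hform]
    have : Continuous fun t : ℝ => t • b j := continuous_id.smul continuous_const
    exact ((hu.continuous.comp this).sub continuous_const).add continuous_const
  -- two distinct directions cannot both be nonconstant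
  have hkey : ∀ i j, i ≠ j → ∀ p p', f i p ≠ f i p' → ∀ q0 q0', f j q0 ≠ f j q0' → False := by
    intro i j hij p p' hp q0 q0' hq0
    have hji : j ≠ i := fun h => hij h.symm
    have hsum : ∀ q q', f j q ≠ f j q' →
        f j q + f j q' = 2 * f j 0 - 2 * u (p • b i) - f i p' + f i p := by
      intro q q' hq
      have hx : u (p • b i + q • b j) = u (p • b i) + (f j q - f j 0) := by
        have := hdiff (p • b i) j q
        simpa [inner_smul_right, hon, hji] using this
      have h1 : u (p • b i + q • b j + (p' - p) • b i)
          = u (p • b i + q • b j) + (f i p' - f i p) := by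
        have := hdiff (p • b i + q • b j) i (p' - p)
        simpa [inner_add_right, inner_smul_right, hon, hij] using this
      have h2 : u (p • b i + q • b j + (q' - q) • b j)
          = u (p • b i + q • b j) + (f j q' - f j q) := by
        have := hdiff (p • b i + q • b j) j (q' - q)
        simpa [inner_add_right, inner_smul_right, hon, hji] using this
      have h3 := htri i j hij (p • b i + q • b j) (p' - p) (q' - q)
      rw [h1, h2] at h3
      have hA : f i p' - f i p ≠ 0 := fun h => hp (by linarith)
      have hB : f j q' - f j q ≠ 0 := fun h => hq (by linarith)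
      have h4 : u (p • b i + q • b j) + (f i p' - f i p)
          + (u (p • b i + q • b j) + (f j q' - f j q)) = 0 := by
        rcases mul_eq_zero.mp h3 with h | h
        · rcases mul_eq_zero.mp h with h | h
          · exact absurd (by linarith) hA
          · exact absurd (by linarith) hB
        · exact h
      rw [hx] at h4
      linarith
    refine not_two_valued (f j) (hcont j) q0 q0' hq0 ?_
    intro r
    by_cases hr : f j r = f j q0
    · exact Or.inl hr
    · right
      have e1 := hsum r q0 hr
      have e2 := hsum q0 q0' hq0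
      linarith
  -- choose the direction
  have hex : ∃ j, ∀ k, k ≠ j → ∀ t, f k t = f k 0 := by
    by_cases hnc : ∃ j t, f j t ≠ f j 0
    · obtain ⟨j, t, ht⟩ := hnc
      refine ⟨j, fun k hk t' => ?_⟩
      by_contra hne
      exact hkey j k (fun h => hk h.symm) t 0 ht t' 0 hne
    · refine ⟨⟨0, hn⟩, fun k _ t => ?_⟩
      by_contra hne
      exact hnc ⟨k, t, hne⟩
  obtain ⟨j, hj⟩ := hex
  refine ⟨b j, fun t => f j t + ∑ k ∈ Finset.univ.erase j, f k 0, b.orthonormal.1 j, fun x => ?_⟩
  rw [hsep, ← Finset.add_sum_erase Finset.univ _ (Finset.mem_univ j)]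
  congr 1
  refine Finset.sum_congr rfl fun k hk => ?_
  exact hj k (Finset.ne_of_mem_erase hk) _

end Vale.Agent.Results.P134.SeparableOneDim
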