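import Mathlib
import Vale.Agent.Helper20.P134Eikonal

/-!
# P134 (De Giorgi's conjecture for the Allen-Cahn equation): solutions whose level sets are
translates of one graph

Let `e` be a unit vector of `ℝ^n` (the direction of monotonicity, `e = e_n` in the problem).
Suppose an entire solution of `Δ u = u^3 - u` has the form `u(x) = g(⟨e, x⟩ - h(x))`, where
`g : ℝ → ℝ` is `C^2` with `g' > 0` and `h : ℝ^n → ℝ` is `C^2` and does not depend on the
`e`-coordinate.  Equivalently: `u` is strictly increasing in the direction `e` and every level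
set of `u` is a translate, along `e`, of the graph of `h` over the hyperplane `e^⊥`.
Then `u` is one-dimensional.

Proof: the equation reads `g''(σ) (1 + |∇h(x)|^2) - g'(σ) Δh(x) = g(σ)^3 - g(σ)` for all `x`, `σ`.
If `|∇h|` were not constant, `g'' = λ g'` and then `μ g' = g^3 - g`, which forces `g ≡ 0`.
So `|∇h|` is constant and, by eikonal rigidity, `h` is affine.
-/

namespace Vale.Agent.Results.P134.TranslatedGraphs

open InnerProductSpace Laplacian
open Vale.Agent.Helper20.P134

/-- **Allen-Cahn solutions whose level sets are translates of one graph are one-dimensional.**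
Let `u : ℝ^n → ℝ` solve `Δ u = u^3 - u` on all of `ℝ^n` and be of the form
`u(x) = g(⟨e, x⟩ - h(x))` with `‖e‖ = 1`, `g ∈ C^2(ℝ)`, `g' > 0`, `h ∈ C^2(ℝ^n)` and
`h(x + t e) = h(x)` for all `x`, `t`.  Then `u(x) = k(⟨e', x⟩)` for a unit vector `e'` and a
function `k : ℝ → ℝ`. -/
theorem result {n : ℕ} (u : EuclideanSpace ℝ (Fin n) → ℝ)
    (heq : ∀ x, Δ u x = u x ^ 3 - u x)
    (e : EuclideanSpace ℝ (Fin n)) (he : ‖e‖ = 1)
    (g : ℝ → ℝ) (h : EuclideanSpace ℝ (Fin n) → ℝ)
    (hg : ContDiff ℝ 2 g) (hh : ContDiff ℝ 2 h)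
    (hmono : ∀ σ, 0 < deriv g σ)
    (hinv : ∀ (x : EuclideanSpace ℝ (Fin n)) (t : ℝ), h (x + t • e) = h x)
    (hform : ∀ x, u x = g (inner ℝ e x - h x)) :
    ∃ (e' : EuclideanSpace ℝ (Fin n)) (k : ℝ → ℝ),
      ‖e'‖ = 1 ∧ ∀ x, u x = k (inner ℝ e' x) := by
  have hu : u = fun y => g (inner ℝ e y - h y) := funext hform
  -- the equation in terms of `g` and `h`
  have hmaster : ∀ (x : EuclideanSpace ℝ (Fin n)) (σ : ℝ),
      deriv (deriv g) σ * (1 + ‖fderiv ℝ h x‖ ^ 2) - deriv g σ * Δ h x = g σ ^ 3 - g σ := by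
    intro x σ
    set t : ℝ := σ - (inner ℝ e x - h x) with ht
    have hx' := heq (x + t • e)
    rw [hu] at hx'
    beta_reduce at hx'
    rw [laplacian_graph e he g h hg hh hinv (x + t • e)] at hx'
    have hfun : (fun z => h (z + t • e)) = h := funext fun z => hinv z t
    have i1 : h (x + t • e) = h x := hinv x t
    have i2 : fderiv ℝ h (x + t • e) = fderiv ℝ h x := by
      have := fderiv_comp_add_right (𝕜 := ℝ) (f := h) (x := x) (t • e)
      rw [hfun] at this
      exact this.symm
    have i3 : Δ h (x + t • e) = Δ h x := by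
      have := laplacian_comp_add_right h (t • e) x
      rw [hfun] at this
      exact this.symm
    have i4 : inner ℝ e (x + t • e) - h (x + t • e) = σ := by
      rw [i1, inner_add_right, inner_smul_right, real_inner_self_eq_norm_sq, he, ht]
      ring
    rw [i2, i3, i4] at hx'
    exact hx'
  -- `|∇h|` is constant
  have hconst : ∀ x, ‖fderiv ℝ h x‖ ^ 2 = ‖fderiv ℝ h 0‖ ^ 2 := by
    intro x
    by_contra hne
    exact ode_contra g hg hmono _ _ (Δ h x) (Δ h 0) hne (hmaster x) (hmaster 0)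
  -- hence `h` is affine
  obtain ⟨v, hv⟩ := eikonal_affine h hh _ hconst
  have hve : inner ℝ v e = 0 := by
    have h1 := hinv 0 1
    rw [hv (0 + (1 : ℝ) • e)] at h1
    simpa using h1
  have hw2 : ‖e - v‖ ^ 2 = 1 + ‖v‖ ^ 2 := by
    rw [norm_sub_sq_real, he, real_inner_comm, hve]
    ring
  have hwpos : 0 < ‖e - v‖ := by
    have h2 : 0 < ‖e - v‖ ^ 2 := by rw [hw2]; positivity
    exact lt_of_le_of_ne (norm_nonneg _) (fun h0 => by rw [← h0] at h2; simp at h2)
  refine ⟨‖e - v‖⁻¹ • (e - v), fun τ => g (‖e - v‖ * τ - h 0), ?_, ?_⟩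
  · rw [norm_smul, norm_inv, norm_norm, inv_mul_cancel₀ hwpos.ne']
  · intro x
    rw [hform, hv x, real_inner_smul_left]
    beta_reduce
    rw [← mul_assoc, mul_inv_cancel₀ hwpos.ne', one_mul, inner_sub_left]
    congr 1
    ring

end Vale.Agent.Results.P134.TranslatedGraphs
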